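import Vale.Agent.P072.MeasMain

/-- The permanence theorem in its stronger form with measurable rates. For every weakly reversible
mass-action network, every `ε > 0` and every positive stoichiometric class `P = (c + S) ∩ ℝ^d_{>0}`
there is a compact set `K ⊆ P` such that for each `x₀ ∈ P` there is a time `T₀`, and for all rates
measurable in time with values in `[ε, 1/ε]` the initial state `x₀` starts a global Caratheodory
solution `x` in `P`, which is the only Caratheodory solution from `x₀` and which lies in `K` from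
time `T₀` on. -/
theorem Vale.Agent.Results.P072.AMeasurableRates.result {d : ℕ} (N : Vale.Agent.P072.Network d)
    (hN : N.WeaklyReversible) (ε : ℝ) (hε : 0 < ε) (c : Fin d → ℝ) (hc : ∀ i, 0 < c i) :
    ∃ K : Set (Fin d → ℝ), IsCompact K ∧ (∀ y ∈ K, (∀ i, 0 < y i) ∧ y - c ∈ N.stoich) ∧
      ∀ x₀ : Fin d → ℝ, (∀ i, 0 < x₀ i) → x₀ - c ∈ N.stoich →
        ∃ T₀ : ℝ, 0 ≤ T₀ ∧
          ∀ k : ℝ → Vale.Agent.P072.Cplx d × Vale.Agent.P072.Cplx d → ℝ,
            (∀ r ∈ N.reactions, Measurable (fun t => k t r)) →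
            (∀ t, ∀ r ∈ N.reactions, ε ≤ k t r ∧ k t r ≤ ε⁻¹) →
            ∃ x : ℝ → Fin d → ℝ, x 0 = x₀ ∧
              (∀ t, 0 ≤ t → (∀ i, 0 < x t i) ∧ x t - c ∈ N.stoich) ∧
              (∀ T, Vale.Agent.P072.IsCaratheodorySolution N k T x) ∧
              (∀ (T : ℝ) (x' : ℝ → Fin d → ℝ),
                Vale.Agent.P072.IsCaratheodorySolution N k T x' → x' 0 = x₀ →
                ∀ t ∈ Set.Ico 0 T, x' t = x t) ∧
              ∀ t, T₀ ≤ t → x t ∈ K :=
  Vale.Agent.P072.Meas.measurable_main N hN ε hε c hc
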