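import Vale.Agent.P072.Gen2Perm

/-- The permanence conjecture. For every weakly reversible mass-action network, all positive rate
constants and every positive stoichiometric class `P = (c + S) ∩ ℝ^d_{>0}` there is a compact set
`K ⊆ P` such that every `x₀ ∈ P` is the start of a global positive solution `x` in `P`, which is
the only positive solution from `x₀`, and which lies in `K` for all large times. -/
theorem Vale.Agent.Results.P072.AllPermanent.result {d : ℕ} (N : Vale.Agent.P072.Network d)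
    (hN : N.WeaklyReversible) (k : Vale.Agent.P072.Cplx d × Vale.Agent.P072.Cplx d → ℝ)
    (hk : ∀ r ∈ N.reactions, 0 < k r) (c : Fin d → ℝ) (hc : ∀ i, 0 < c i) :
    ∃ K : Set (Fin d → ℝ), IsCompact K ∧ (∀ y ∈ K, (∀ i, 0 < y i) ∧ y - c ∈ N.stoich) ∧
      ∀ x₀ : Fin d → ℝ, (∀ i, 0 < x₀ i) → x₀ - c ∈ N.stoich →
        ∃ x : ℝ → Fin d → ℝ, x 0 = x₀ ∧
          (∀ t, 0 ≤ t → (∀ i, 0 < x t i) ∧ x t - c ∈ N.stoich) ∧
          HasDerivWithinAt x (Vale.Agent.P072.massAction N k x₀) (Set.Ici 0) 0 ∧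
          (∀ t, 0 < t → HasDerivAt x (Vale.Agent.P072.massAction N k (x t)) t) ∧
          (∀ (T : ℝ) (x' : ℝ → Fin d → ℝ),
            Vale.Agent.P072.IsPositiveSolution N (fun _ => k) T x' → x' 0 = x₀ →
            ∀ t ∈ Set.Ico 0 T, x' t = x t) ∧
          ∃ T₀ : ℝ, ∀ t, T₀ ≤ t → x t ∈ K :=
  Vale.Agent.P072.Gen.permanent N hN k hk c hc
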