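import Vale.Agent.P072.GenFinal

/-- Every positive solution of every weakly reversible mass-action system with rates between
`ε` and `1/ε`, arbitrary in time, is bounded by a constant depending only on the network,
`ε` and the initial state. -/
theorem Vale.Agent.Results.P072.BoundedAll.result {d : ℕ} (N : Vale.Agent.P072.Network d)
    (hN : N.WeaklyReversible) (ε : ℝ) (hε : 0 < ε) (c : Fin d → ℝ) (hc : ∀ i, 0 < c i) :
    ∃ R : ℝ, ∀ k : ℝ → Vale.Agent.P072.Cplx d × Vale.Agent.P072.Cplx d → ℝ,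
      (∀ t, ∀ r ∈ N.reactions, ε ≤ k t r ∧ k t r ≤ ε⁻¹) →
      ∀ (T : ℝ) (x : ℝ → Fin d → ℝ), Vale.Agent.P072.IsPositiveSolution N k T x → x 0 = c →
        ∀ t ∈ Set.Ico 0 T, ∀ i, x t i ≤ R :=
  Vale.Agent.P072.Gen.bounded_all N hN ε hε c hc
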