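import Vale.Agent.P072.Gen2Abs

/-- For every weakly reversible mass-action network, every `ε > 0` and every positive
stoichiometric class there is a compact subset `K` of the class such that every positive solution
in the class, for any rates in `[ε, 1/ε]` varying arbitrarily in time, lies in `K` from a time on
which depends on its initial state only. -/
theorem Vale.Agent.Results.P072.CompactAbsorbing.result {d : ℕ} (N : Vale.Agent.P072.Network d)
    (hN : N.WeaklyReversible) (ε : ℝ) (hε : 0 < ε) (c : Fin d → ℝ) (hc : ∀ i, 0 < c i) :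
    ∃ K : Set (Fin d → ℝ), IsCompact K ∧ (∀ y ∈ K, (∀ i, 0 < y i) ∧ y - c ∈ N.stoich) ∧
      ∀ x₀ : Fin d → ℝ, (∀ i, 0 < x₀ i) → x₀ - c ∈ N.stoich →
        ∃ T₀ : ℝ, ∀ k : ℝ → Vale.Agent.P072.Cplx d × Vale.Agent.P072.Cplx d → ℝ,
          (∀ t, ∀ r ∈ N.reactions, ε ≤ k t r ∧ k t r ≤ ε⁻¹) →
          ∀ (T : ℝ) (x : ℝ → Fin d → ℝ), Vale.Agent.P072.IsPositiveSolution N k T x → x 0 = x₀ →
            ∀ t ∈ Set.Ico 0 T, T₀ ≤ t → x t ∈ K :=
  Vale.Agent.P072.Gen.absorbing_compact N hN ε hε c hc
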